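import Vale.Agent.P097.H967.Alg.Kap

/-! # P097 / ALG-EB: the conic invariant is bounded at the ends -/

set_option linter.all false

open Complex Metric Filter Topology Set

namespace Vale.Agent.P097.H967.EB

open Vale.Agent.P097.Alg Vale.Agent.P097.NZ Vale.Agent.P097.H402.Rat

variable {N : ℕ} {k : ℤ} {R ρ : ℂ → ℂ} {ψ₀ ξ : ℂ}

theorem th_const_add {n : ℕ} {c : ℂ} (hR : AnalyticAt ℂ R 0) (h : Z n (fun ξ => R ξ + c)) :
    Z n (th N R) := by
  refine (Z.th (N := N) h).congr ?_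
  filter_upwards [hR.eventually_analyticAt] with ξ a
  have : deriv (fun ξ => R ξ + c) ξ = deriv R ξ := by
    rw [deriv_add_const]
  rw [th, th, this]

theorem BB_an (hR : AnalyticAt ℂ R 0) : AnalyticAt ℂ (BB N k R) 0 := by
  have h1 := dd_an (N := N) (k := k) hR
  have h2 := dd_an (N := N) (k := k - N) h1
  unfold BB
  fun_prop

theorem CC_an (hR : AnalyticAt ℂ R 0) : AnalyticAt ℂ (CC N k R) 0 := by
  have h1 := dd_an (N := N) (k := k) hR
  have h2 := dd_an (N := N) (k := k) h1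
  unfold CC
  fun_prop

/-- `θ (a R + θ R) = a θ R + θ θ R` near `0` -/
theorem th_dd (hR : AnalyticAt ℂ R 0) :
    ∀ᶠ ξ in 𝓝 (0 : ℂ), th N (dd N k R) ξ = (k / N : ℂ) * th N R ξ + th N (th N R) ξ := by
  filter_upwards [hR.eventually_analyticAt] with ξ a
  have h1 : HasDerivAt (dd N k R) ((k / N : ℂ) * deriv R ξ + deriv (th N R) ξ) ξ :=
    (a.differentiableAt.hasDerivAt.const_mul _).add (th_an a).differentiableAt.hasDerivAt
  show ξ * deriv (dd N k R) ξ / N = (k / N : ℂ) * (ξ * deriv R ξ / N) + ξ * deriv (th N R) ξ / N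
  rw [h1.deriv]
  ring

/-- exponent `0` -/
theorem BB_zero (hN : 1 ≤ N) (hR : AnalyticAt ℂ R 0)
    (h : ∀ j : ℕ, 0 < j → j < 2 * N → j ≠ N → iteratedDeriv j R 0 = 0) :
    Z (2 * N) (BB N 0 R) := by
  obtain ⟨c, hc⟩ := Z_of_iteratedDeriv' hR (by omega : 0 < N) (by omega : N < 2 * N) h
  have hNc : (N : ℂ) ≠ 0 := by exact_mod_cast (by omega : N ≠ 0)
  -- first derivative
  have z1 : Z (2 * N) (fun ξ => th N R ξ + -(c * ξ ^ N)) := by
    refine (Z.th (N := N) hc).congr ?_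
    filter_upwards [hR.eventually_analyticAt] with ξ a
    have e : HasDerivAt (fun ξ => R ξ + -R 0 + -(c * ξ ^ N))
        (deriv R ξ + -(c * (N * ξ ^ (N - 1)))) ξ :=
      (a.differentiableAt.hasDerivAt.add_const _).add (((hasDerivAt_pow N ξ).const_mul c).neg)
    rw [th, th, e.deriv]
    have e5 : ξ * ξ ^ (N - 1) = ξ ^ N := by rw [mul_comm, ← pow_succ, Nat.sub_add_cancel hN]
    field_simp
    linear_combination c * N * e5
  have z1' : Z N (th N R) := by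
    have a1 : Z N (fun ξ => c * ξ ^ N) := (Z_pow N).cmul c
    refine ((z1.mono (by omega : N ≤ 2 * N)).add a1).congr (Filter.Eventually.of_forall fun ξ => ?_)
    ring
  have z2 : Z (2 * N) (fun ξ => th N (th N R) ξ + -(c * ξ ^ N)) := by
    refine (Z.th (N := N) z1).congr ?_
    filter_upwards [(th_an (N := N) hR).eventually_analyticAt] with ξ a
    have e : HasDerivAt (fun ξ => th N R ξ + -(c * ξ ^ N))
        (deriv (th N R) ξ + -(c * (N * ξ ^ (N - 1)))) ξ :=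
      a.differentiableAt.hasDerivAt.add (((hasDerivAt_pow N ξ).const_mul c).neg)
    show ξ * deriv (th N R) ξ / N + -(c * ξ ^ N) = ξ * deriv (fun ξ => th N R ξ + -(c * ξ ^ N)) ξ / N
    rw [e.deriv]
    have e5 : ξ * ξ ^ (N - 1) = ξ ^ N := by rw [mul_comm, ← pow_succ, Nat.sub_add_cancel hN]
    field_simp
    linear_combination c * N * e5
  -- second derivative
  have z3 : Z (2 * N) (dd N (0 - N) (dd N 0 R)) := by
    refine (z2.add (z1.cmul (-1))).congr ?_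
    filter_upwards [th_dd (N := N) (k := 0) hR] with ξ a
    have e0 : dd N 0 R ξ = th N R ξ := by simp [dd]
    show (((0 - N : ℤ) : ℂ) / N) * dd N 0 R ξ + th N (dd N 0 R) ξ = _
    rw [a, e0]
    push_cast
    field_simp
    ring
  have z4 : Z (2 * N) (fun ξ => dd N 0 R ξ * dd N 0 R ξ) := by
    have := z1'.mul z1'
    rw [← two_mul] at this
    refine this.congr (Filter.Eventually.of_forall fun ξ => ?_)
    simp [dd]
  have z5 : Z (2 * N) (fun ξ => R ξ ^ 2 * ξ ^ (2 * N)) := (Z_pow _).mulL (hR.pow 2)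
  refine (((z5.cmul 2).add (z4.cmul (5 / 9))).add ((z3.mulL hR).cmul (-(1 / 3)))).congr
    (Filter.Eventually.of_forall fun ξ => ?_)
  simp only [BB]
  ring

/-- exponent `-3/2` -/
theorem BB_half (hN : 1 ≤ N) (hk : 2 * k = -3 * N) (hR : AnalyticAt ℂ R 0)
    (h : ∀ j : ℕ, 0 < j → j < N → iteratedDeriv j R 0 = 0) : Z N (BB N k R) := by
  have hNc : (N : ℂ) ≠ 0 := by exact_mod_cast (by omega : N ≠ 0)
  have hσ : (k / N : ℂ) = -3 / 2 := by
    rw [div_eq_div_iff hNc two_ne_zero]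
    have : ((2 * k : ℤ) : ℂ) = ((-3 * N : ℤ) : ℂ) := by rw [hk]
    push_cast at this
    linear_combination this
  have z1 : Z N (th N R) := th_const_add hR (Z_of_iteratedDeriv hR h)
  have z2 : Z N (th N (th N R)) := z1.th
  have z5 : Z N (fun ξ => R ξ ^ 2 * ξ ^ (2 * N)) :=
    ((Z_pow (2 * N)).mulL (hR.pow 2)).mono (by omega)
  have z6 : Z N (fun ξ => th N R ξ * th N R ξ) := z1.mulL (th_an hR)
  refine ((((z5.cmul 2).add (z6.cmul (5 / 9))).add ((z1.mulL hR).cmul (-(1 / 3)))).add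
    ((z2.mulL hR).cmul (-(1 / 3)))).congr ?_
  filter_upwards [th_dd (N := N) (k := k) hR] with ξ a
  have e1 : dd N k R ξ = -3 / 2 * R ξ + th N R ξ := by rw [dd, hσ]
  have e2 : dd N (k - N) (dd N k R) ξ = (-3 / 2 - 1) * dd N k R ξ + th N (dd N k R) ξ := by
    show (((k - N : ℤ) : ℂ) / N) * dd N k R ξ + th N (dd N k R) ξ = _
    rw [show (((k - N : ℤ) : ℂ) / N) = (k / N : ℂ) - 1 by push_cast; field_simp, hσ]
  rw [BB, e2, a, e1, hσ]
  ring

/-- isotropic end of exponent `3` -/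
theorem CC_three (hN : 1 ≤ N) (hR : AnalyticAt ℂ R 0)
    (h : ∀ j : ℕ, 0 < j → j < 2 * N → iteratedDeriv j R 0 = 0) : Z (2 * N) (CC N (3 * N) R) := by
  have hNc : (N : ℂ) ≠ 0 := by exact_mod_cast (by omega : N ≠ 0)
  have hσ : (((3 * N : ℤ) : ℂ) / N) = 3 := by
    push_cast; field_simp
  have z1 : Z (2 * N) (th N R) := th_const_add hR (Z_of_iteratedDeriv hR h)
  have z2 : Z (2 * N) (th N (th N R)) := z1.th
  have z6 : Z (2 * N) (fun ξ => th N R ξ * th N R ξ) := z1.mulL (th_an hR)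
  refine (((z6.cmul (-(5 / 9))).add ((z1.mulL hR).cmul (-(4 / 3)))).add
    ((z2.mulL hR).cmul (1 / 3))).congr ?_
  filter_upwards [th_dd (N := N) (k := 3 * N) hR] with ξ a
  have e1 : dd N (3 * N) R ξ = 3 * R ξ + th N R ξ := by rw [dd, hσ]
  have e2 : dd N (3 * N) (dd N (3 * N) R) ξ =
      3 * dd N (3 * N) R ξ + th N (dd N (3 * N) R) ξ := by
    show (((3 * N : ℤ) : ℂ) / N) * dd N (3 * N) R ξ + th N (dd N (3 * N) R) ξ = _
    rw [hσ]
  rw [CC, e2, a, e1, hσ]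
  ring

/-- ALG-EB, finite ends -/
theorem endBd (hA : RootA) (kb : KB) (ee : EndE) (leb : LawEB) (l0 : PL0) (l1 : PL1) : EndBd := by
  intro N k R ψ₀ ε E
  have hN := E.hN
  have hN0 : (0 : ℝ) < N := by exact_mod_cast hN
  have hR : AnalyticAt ℂ R 0 := E.anR (mem_ball_self E.hε)
  have hR0 : R 0 ≠ 0 := E.R0 0 (mem_ball_self E.hε)
  -- the exponent
  have hcase : k = 0 ∨ 2 * k = -3 * N ∨ k ≤ -3 * N := by
    obtain ⟨F, hF, hodd, hFc, hlaw⟩ := ee N k R ψ₀ ε E.hε hN E.dR E.R0 E.good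
    have hcast : ((k : ℂ) / (N : ℂ)) = (((k : ℝ) / (N : ℝ) : ℝ) : ℂ) := by
      push_cast
      rfl
    simp only [hcast] at hlaw
    obtain ⟨f, hf⟩ := leb ((k : ℝ) / N) F hF hodd hFc hlaw
    rcases kb _ f hf with h1 | h1 | h1
    · left
      rw [div_eq_zero_iff] at h1
      rcases h1 with h1 | h1
      · exact_mod_cast h1
      · exact absurd h1 hN0.ne'
    · right; left
      rw [div_eq_div_iff hN0.ne' two_ne_zero] at h1
      have : ((2 * k : ℤ) : ℝ) = ((-3 * N : ℤ) : ℝ) := by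
        push_cast
        linarith
      exact_mod_cast this
    · right; right
      rw [div_le_iff₀ hN0] at h1
      have : ((k : ℤ) : ℝ) ≤ ((-3 * N : ℤ) : ℝ) := by
        push_cast
        linarith
      exact_mod_cast this
  -- the order of the numerator
  obtain ⟨n, hn, hB⟩ : ∃ n : ℕ, 0 ≤ (-2 * k - 6 * N) + 3 * n ∧ Z n (BB N k R) := by
    rcases hcase with h1 | h1 | h1
    · subst h1
      exact ⟨2 * N, by push_cast; linarith, BB_zero hN hR (l0 N R ψ₀ ε E)⟩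
    · exact ⟨N, by linarith, BB_half hN h1 hR (l1 N k R ψ₀ ε E h1)⟩
    · exact ⟨0, by push_cast; linarith, Z_zero (BB_an hR)⟩
  obtain ⟨r, hr, M, hM⟩ := bdd hR hR0 hB hn
  refine ⟨min r ε, lt_min hr E.hε, min_le_right _ _, M, fun ξ hξ hξ0 ρ hρ => ?_⟩
  have h1 : ξ ∈ ball (0 : ℂ) ε := ball_subset_ball (min_le_right _ _) hξ
  rw [kapF hN hξ0 (E.anR h1) (E.R0 ξ h1) hρ]
  exact hM ξ (ball_subset_ball (min_le_left _ _) hξ) hξ0

/-- the coordinate `xiI` -/
theorem xiI_deriv {s : ℂ} {ψ₁ ξ₁ : ℂ} (hN : 1 ≤ N) (ψ : ℂ) :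
    HasDerivAt (xiI s N ψ₁ ξ₁) ((s * I) / N * xiI s N ψ₁ ξ₁ ψ) ψ := by
  have h1 : HasDerivAt (fun ψ : ℂ => s * I * (ψ - ψ₁) / N) (s * I * 1 / N) ψ :=
    (((hasDerivAt_id ψ).sub_const ψ₁).const_mul (s * I)).div_const _
  have h2 := (h1.cexp).const_mul ξ₁
  refine h2.congr_deriv ?_
  rw [xiI]
  ring

/-- ALG-EB, isotropic ends -/
theorem endBdI (eli : EndLI) (k5 : PK5) (k3 : KI3) (li : PLI) : EndBdI := by
  intro s N k R ε E
  have hN := E.hN
  have hN0 : (0 : ℝ) < N := by exact_mod_cast hN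
  have h00 : (0 : ℂ) ∈ ball (0 : ℂ) ε := mem_ball_self E.hε
  have anR : ∀ ξ ∈ ball (0 : ℂ) ε, AnalyticAt ℂ R ξ := fun ξ h =>
    E.dR.analyticAt (isOpen_ball.mem_nhds h)
  have hR : AnalyticAt ℂ R 0 := anR 0 h00
  have hR0 : R 0 ≠ 0 := E.R0 0 h00
  have hs2 : (s * I) ^ 2 = -1 := by
    rcases E.hs with h | h <;> rw [h, mul_pow, I_sq] <;> norm_num
  have hcase : k ≤ 0 ∨ k = 3 * N := by
    rcases le_or_gt k 0 with h1 | h1
    · exact Or.inl h1
    right
    have hk : (0 : ℝ) < k := by exact_mod_cast h1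
    obtain ⟨f, hf⟩ := eli s N k R ε E h1
    have hm : 0 < 3 * (N : ℝ) / k := by positivity
    have hm1 : 3 * (N : ℝ) / k = 1 := by
      by_contra hne
      rcases lt_or_ge (3 * (N : ℝ) / k) 3 with h2 | h2
      · exact k5 _ f hm h2 hne hf
      · exact k3 _ f h2 hf
    rw [div_eq_one_iff_eq hk.ne'] at hm1
    have : ((k : ℤ) : ℝ) = ((3 * N : ℤ) : ℝ) := by push_cast; linarith
    exact_mod_cast this
  obtain ⟨n, hn, hB⟩ : ∃ n : ℕ, 0 ≤ (-2 * k) + 3 * n ∧ Z n (CC N k R) := by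
    rcases hcase with h1 | h1
    · exact ⟨0, by push_cast; linarith, Z_zero (CC_an hR)⟩
    · subst h1
      exact ⟨2 * N, by push_cast; linarith, CC_three hN hR (li s N R ε E)⟩
  obtain ⟨r, hr, M, hM⟩ := bdd hR hR0 hB hn
  refine ⟨min r ε, lt_min hr E.hε, min_le_right _ _, M, fun ξ₁ hξ hξ0 ψ₁ hψ ρ hρ => ?_⟩
  have h1 : ξ₁ ∈ ball (0 : ℂ) ε := ball_subset_ball (min_le_right _ _) hξ
  rw [kapI (c := s * I) (x := xiI s N ψ₁ ξ₁) hN hs2 (fun ψ => xiI_deriv hN ψ)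
    (fun ψ => mul_ne_zero hξ0 (Complex.exp_ne_zero _)) (by simp [xiI]) (anR ξ₁ h1) (E.R0 ξ₁ h1) hρ]
  exact hM ξ₁ (ball_subset_ball (min_le_left _ _) hξ) hξ0

end Vale.Agent.P097.H967.EB
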