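import Mathlib

/-! # P097 / ALG-EB: orders of vanishing and bounds -/

set_option linter.all false

open Complex Metric Filter Topology Set

namespace Vale.Agent.P097.H967.EB

/-- `f` vanishes at `0` to order at least `n` -/
def Z (n : ℕ) (f : ℂ → ℂ) : Prop :=
  ∃ g : ℂ → ℂ, AnalyticAt ℂ g 0 ∧ ∀ᶠ ξ in 𝓝 (0 : ℂ), f ξ = ξ ^ n * g ξ

theorem Z.congr {n : ℕ} {f g : ℂ → ℂ} (h : Z n f) (e : ∀ᶠ ξ in 𝓝 (0 : ℂ), g ξ = f ξ) : Z n g := by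
  obtain ⟨G, hG, h1⟩ := h
  exact ⟨G, hG, by filter_upwards [h1, e] with ξ a b; rw [b, a]⟩

theorem Z.add {n : ℕ} {f g : ℂ → ℂ} (hf : Z n f) (hg : Z n g) : Z n (fun ξ => f ξ + g ξ) := by
  obtain ⟨F, hF, h1⟩ := hf
  obtain ⟨G, hG, h2⟩ := hg
  exact ⟨fun ξ => F ξ + G ξ, hF.add hG, by filter_upwards [h1, h2] with ξ a b; rw [a, b]; ring⟩

theorem Z.mulL {n : ℕ} {f g : ℂ → ℂ} (hf : Z n f) (hg : AnalyticAt ℂ g 0) :
    Z n (fun ξ => g ξ * f ξ) := by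
  obtain ⟨F, hF, h1⟩ := hf
  exact ⟨fun ξ => g ξ * F ξ, hg.mul hF, by filter_upwards [h1] with ξ a; rw [a]; ring⟩

theorem Z.cmul {n : ℕ} {f : ℂ → ℂ} (hf : Z n f) (c : ℂ) : Z n (fun ξ => c * f ξ) :=
  hf.mulL (g := fun _ => c) analyticAt_const

theorem Z.mul {m n : ℕ} {f g : ℂ → ℂ} (hf : Z m f) (hg : Z n g) :
    Z (m + n) (fun ξ => f ξ * g ξ) := by
  obtain ⟨F, hF, h1⟩ := hf
  obtain ⟨G, hG, h2⟩ := hg
  exact ⟨fun ξ => F ξ * G ξ, hF.mul hG, by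
    filter_upwards [h1, h2] with ξ a b; rw [a, b, pow_add]; ring⟩

theorem Z.mono {m n : ℕ} (h : m ≤ n) {f : ℂ → ℂ} (hf : Z n f) : Z m f := by
  obtain ⟨F, hF, h1⟩ := hf
  refine ⟨fun ξ => ξ ^ (n - m) * F ξ, (analyticAt_id.pow _).mul hF, ?_⟩
  filter_upwards [h1] with ξ a
  rw [a, ← mul_assoc, ← pow_add, Nat.add_sub_cancel' h]

theorem Z_pow (n : ℕ) : Z n (fun ξ => ξ ^ n) :=
  ⟨fun _ => 1, analyticAt_const, Filter.Eventually.of_forall fun ξ => by rw [mul_one]⟩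

theorem Z_zero {f : ℂ → ℂ} (hf : AnalyticAt ℂ f 0) : Z 0 f :=
  ⟨f, hf, Filter.Eventually.of_forall fun ξ => by rw [pow_zero, one_mul]⟩

/-- `θ f = ξ f' / N` -/
noncomputable def th (N : ℕ) (f : ℂ → ℂ) (ξ : ℂ) : ℂ := ξ * deriv f ξ / N

theorem th_an {N : ℕ} {f : ℂ → ℂ} {ξ : ℂ} (hf : AnalyticAt ℂ f ξ) : AnalyticAt ℂ (th N f) ξ := by
  have : th N f = fun ξ => ξ * deriv f ξ * (N : ℂ)⁻¹ := by
    funext ξ; rw [th, div_eq_mul_inv]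
  rw [this]
  exact (analyticAt_id.mul hf.deriv).mul analyticAt_const

theorem th_congr {N : ℕ} {f g : ℂ → ℂ} (h : ∀ᶠ ξ in 𝓝 (0 : ℂ), f ξ = g ξ) :
    ∀ᶠ ξ in 𝓝 (0 : ℂ), th N f ξ = th N g ξ := by
  filter_upwards [h.eventually_nhds] with ξ a
  have : deriv f ξ = deriv g ξ := Filter.EventuallyEq.deriv_eq a
  rw [th, th, this]

theorem Z.th {N n : ℕ} {f : ℂ → ℂ} (hf : Z n f) : Z n (EB.th N f) := by
  obtain ⟨F, hF, h1⟩ := hf
  refine ⟨fun ξ => (n / N : ℂ) * F ξ + EB.th N F ξ, (analyticAt_const.mul hF).add (th_an hF), ?_⟩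
  filter_upwards [th_congr (N := N) h1, hF.eventually_analyticAt] with ξ a b
  rw [a, EB.th, EB.th]
  have h2 : HasDerivAt (fun ξ => ξ ^ n * F ξ) ((n * ξ ^ (n - 1)) * F ξ + ξ ^ n * deriv F ξ) ξ :=
    (hasDerivAt_pow n ξ).mul b.differentiableAt.hasDerivAt
  rw [h2.deriv]
  rcases n with _ | n
  · simp
  · rw [Nat.add_sub_cancel, pow_succ]
    ring

/-- Taylor: the coefficients of order `0 < j < n` vanish -/
theorem Z_of_iteratedDeriv {R : ℂ → ℂ} (hR : AnalyticAt ℂ R 0) {n : ℕ}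
    (h : ∀ j, 0 < j → j < n → iteratedDeriv j R 0 = 0) : Z n (fun ξ => R ξ + -R 0) := by
  rcases Nat.eq_zero_or_pos n with h0 | h0
  · subst h0
    exact Z_zero (hR.add analyticAt_const)
  obtain ⟨F, hF, h1⟩ := hR.exists_eventuallyEq_sum_add_pow_mul n
  refine ⟨F, hF, ?_⟩
  filter_upwards [h1] with ξ a
  rw [a, Finset.sum_eq_single_of_mem 0 (Finset.mem_range.2 h0)]
  · simp
  · intro j hj hj0
    rw [h j (Nat.pos_of_ne_zero hj0) (Finset.mem_range.1 hj), smul_zero]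

/-- Taylor: only the coefficients `0` and `m` do not vanish -/
theorem Z_of_iteratedDeriv' {R : ℂ → ℂ} (hR : AnalyticAt ℂ R 0) {n m : ℕ} (hm : 0 < m) (hmn : m < n)
    (h : ∀ j, 0 < j → j < n → j ≠ m → iteratedDeriv j R 0 = 0) :
    ∃ c : ℂ, Z n (fun ξ => R ξ + -R 0 + -(c * ξ ^ m)) := by
  obtain ⟨F, hF, h1⟩ := hR.exists_eventuallyEq_sum_add_pow_mul n
  refine ⟨iteratedDeriv m R 0 / m.factorial, F, hF, ?_⟩
  filter_upwards [h1] with ξ a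
  have hsum : ∑ i ∈ Finset.range n, (ξ ^ i / i.factorial) • iteratedDeriv i R 0 =
      ∑ i ∈ ({0, m} : Finset ℕ), (ξ ^ i / i.factorial) • iteratedDeriv i R 0 := by
    symm
    refine Finset.sum_subset ?_ ?_
    · intro i hi
      simp only [Finset.mem_insert, Finset.mem_singleton] at hi
      rcases hi with rfl | rfl
      · exact Finset.mem_range.2 (by omega)
      · exact Finset.mem_range.2 hmn
    · intro i hi hi'
      simp only [Finset.mem_insert, Finset.mem_singleton, not_or] at hi'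
      rw [h i (Nat.pos_of_ne_zero hi'.1) (Finset.mem_range.1 hi) hi'.2, smul_zero]
  rw [a, hsum, Finset.sum_pair hm.ne]
  simp only [pow_zero, Nat.factorial_zero, Nat.cast_one, div_one, iteratedDeriv_zero, smul_eq_mul]
  ring

/-- the bound -/
theorem bdd {R B : ℂ → ℂ} (hR : AnalyticAt ℂ R 0) (hR0 : R 0 ≠ 0) {n : ℕ} (hB : Z n B) {e : ℤ}
    (he : 0 ≤ e + 3 * n) : ∃ r > 0, ∃ M : ℝ, ∀ ξ ∈ ball (0 : ℂ) r, ξ ≠ 0 →
      ‖ξ ^ e * B ξ ^ 3 / R ξ ^ 8‖ ≤ M := by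
  obtain ⟨G, hG, h1⟩ := hB
  set F : ℂ → ℂ := fun ξ => ξ ^ (e + 3 * n).toNat * G ξ ^ 3 / R ξ ^ 8 with hF
  have hc : ContinuousAt F 0 :=
    (((continuousAt_id.pow _).mul (hG.continuousAt.pow 3)).div (hR.continuousAt.pow 8)
      (pow_ne_zero _ hR0))
  have h2 : ∀ᶠ ξ in 𝓝 (0 : ℂ), ‖F ξ‖ < ‖F 0‖ + 1 :=
    hc.norm.eventually_lt_const (by
      show ‖F 0‖ < ‖F 0‖ + 1
      linarith)
  obtain ⟨r, hr, h3⟩ := Metric.eventually_nhds_iff_ball.1 (h1.and h2)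
  refine ⟨r, hr, ‖F 0‖ + 1, fun ξ hξ hξ0 => ?_⟩
  obtain ⟨a, b⟩ := h3 ξ hξ
  have h4 : ξ ^ e * B ξ ^ 3 / R ξ ^ 8 = F ξ := by
    have h5 : ξ ^ e * (ξ ^ n) ^ 3 = ξ ^ (e + 3 * n).toNat := by
      rw [← zpow_natCast ξ (e + 3 * n).toNat, Int.toNat_of_nonneg he, zpow_add₀ hξ0, ← pow_mul,
        show (3 * (n : ℤ)) = ((n * 3 : ℕ) : ℤ) by push_cast; ring, zpow_natCast]
    rw [hF, a]
    simp only
    rw [← h5]
    ring
  rw [h4]
  exact b.le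

end Vale.Agent.P097.H967.EB
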