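import Vale.Agent.P097.H402.Alg.Defs
import Vale.Agent.P097.H967.Alg.Ord

/-! # P097 / ALG-EB: the conic invariant at the ends -/

set_option linter.all false

open Complex Metric Filter Topology Set

namespace Vale.Agent.P097.H967.EB

/-- `(k / N) R + θ R` -/
noncomputable def dd (N : ℕ) (k : ℤ) (R : ℂ → ℂ) (ξ : ℂ) : ℂ := (k / N : ℂ) * R ξ + th N R ξ

theorem dd_an {N : ℕ} {k : ℤ} {f : ℂ → ℂ} {ξ : ℂ} (hf : AnalyticAt ℂ f ξ) :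
    AnalyticAt ℂ (dd N k f) ξ := (analyticAt_const.mul hf).add (th_an hf)

variable {N : ℕ} {k : ℤ} {R ρ : ℂ → ℂ} {ψ₀ ξ : ℂ}

theorem zpow_one_sub (h : ξ ≠ 0) (k : ℤ) : ξ ^ (k - 1) = ξ ^ k / ξ := by
  rw [zpow_sub₀ h, zpow_one]

/-- one derivative at a finite end -/
theorem stepF (hN : 1 ≤ N) (h0 : ξ ≠ 0) (hR : AnalyticAt ℂ R ξ)
    (h : ∀ᶠ ξ' in 𝓝 ξ, ρ (ψ₀ + ξ' ^ N) = ξ' ^ k * R ξ') :
    ∀ᶠ ξ' in 𝓝 ξ, deriv ρ (ψ₀ + ξ' ^ N) = ξ' ^ (k - N) * dd N k R ξ' := by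
  have hNc : (N : ℂ) ≠ 0 := by exact_mod_cast (by omega : N ≠ 0)
  have hfd : ∀ x : ℂ, HasDerivAt (fun ξ' : ℂ => ψ₀ + ξ' ^ N) (N * x ^ (N - 1)) x := fun x => by
    simpa using (hasDerivAt_pow N x).const_add ψ₀
  have hfan : AnalyticAt ℂ (fun ξ' : ℂ => ψ₀ + ξ' ^ N) ξ := analyticAt_const.add (analyticAt_id.pow N)
  have hne : ∀ x : ℂ, x ≠ 0 → (N : ℂ) * x ^ (N - 1) ≠ 0 := fun x hx =>
    mul_ne_zero hNc (pow_ne_zero _ hx)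
  have hfd' : deriv (fun ξ' : ℂ => ψ₀ + ξ' ^ N) ξ ≠ 0 := by
    rw [(hfd ξ).deriv]; exact hne ξ h0
  have hg : AnalyticAt ℂ (fun ξ' : ℂ => ξ' ^ k * R ξ') ξ := (analyticAt_id.zpow h0).mul hR
  have hcomp : AnalyticAt ℂ (ρ ∘ fun ξ' : ℂ => ψ₀ + ξ' ^ N) ξ := hg.congr (by
    filter_upwards [h] with x hx
    exact hx.symm)
  have hρ : AnalyticAt ℂ ρ (ψ₀ + ξ ^ N) :=
    (analyticAt_comp_iff_of_deriv_ne_zero hfan hfd').1 hcomp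
  have hρe : ∀ᶠ ξ' in 𝓝 ξ, AnalyticAt ℂ ρ (ψ₀ + ξ' ^ N) :=
    hfan.continuousAt.eventually hρ.eventually_analyticAt
  filter_upwards [h.eventually_nhds, hρe, hR.eventually_analyticAt,
    (continuousAt_id (x := ξ)).eventually_ne h0] with x h1 h2 h3 h4
  have hx0 : x ≠ 0 := h4
  have e1 : HasDerivAt (fun ξ' : ℂ => ρ (ψ₀ + ξ' ^ N)) (deriv ρ (ψ₀ + x ^ N) * (N * x ^ (N - 1))) x :=
    h2.differentiableAt.hasDerivAt.comp x (hfd x)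
  have e2 : HasDerivAt (fun ξ' : ℂ => ξ' ^ k * R ξ') ((k * x ^ (k - 1)) * R x + x ^ k * deriv R x) x :=
    (hasDerivAt_zpow k x (Or.inl hx0)).mul h3.differentiableAt.hasDerivAt
  have e3 : deriv ρ (ψ₀ + x ^ N) * (N * x ^ (N - 1)) = (k * x ^ (k - 1)) * R x + x ^ k * deriv R x := by
    rw [← e1.deriv, ← e2.deriv]
    exact Filter.EventuallyEq.deriv_eq h1
  have e4 : deriv ρ (ψ₀ + x ^ N) =
      ((k * x ^ (k - 1)) * R x + x ^ k * deriv R x) / (N * x ^ (N - 1)) := by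
    rw [eq_div_iff (hne x hx0), e3]
  rw [e4, zpow_one_sub hx0, zpow_sub₀ hx0, zpow_natCast, dd, th]
  have e5 : x ^ (N - 1) = x ^ N / x := by
    rw [eq_div_iff hx0, ← pow_succ, Nat.sub_add_cancel hN]
  rw [e5]
  have e6 : x ^ N ≠ 0 := pow_ne_zero _ hx0
  field_simp

/-- the numerator at a finite end -/
noncomputable def BB (N : ℕ) (k : ℤ) (R : ℂ → ℂ) (ξ : ℂ) : ℂ :=
  2 * (ξ ^ (2 * N) * R ξ ^ 2) + 5 / 9 * dd N k R ξ ^ 2 -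
    1 / 3 * (R ξ * dd N (k - N) (dd N k R) ξ)

open Vale.Agent.P097.Alg in
theorem kapF (hN : 1 ≤ N) (h0 : ξ ≠ 0) (hR : AnalyticAt ℂ R ξ) (hR0 : R ξ ≠ 0)
    (h : ∀ᶠ ξ' in 𝓝 ξ, ρ (ψ₀ + ξ' ^ N) = ξ' ^ k * R ξ') :
    kap ρ (ψ₀ + ξ ^ N) = ξ ^ (-2 * k - 6 * N) * BB N k R ξ ^ 3 / R ξ ^ 8 := by
  have h1 := stepF hN h0 hR h
  have h2 := stepF hN h0 (dd_an (k := k) hR) h1
  rw [kap, h.self_of_nhds, h1.self_of_nhds, h2.self_of_nhds, BB]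
  have hk : ξ ^ k ≠ 0 := zpow_ne_zero _ h0
  have hNz : ξ ^ N ≠ 0 := pow_ne_zero _ h0
  have a1 : ξ ^ (k - N) = ξ ^ k / ξ ^ N := by rw [zpow_sub₀ h0, zpow_natCast]
  have a2 : ξ ^ (k - N - N) = ξ ^ k / ξ ^ N / ξ ^ N := by
    rw [zpow_sub₀ h0, zpow_natCast, a1]
  have a3 : ξ ^ (-2 * k - 6 * N) = 1 / (ξ ^ k) ^ 2 / (ξ ^ N) ^ 6 := by
    rw [zpow_sub₀ h0, show (-2 * k) = -(k * 2) by ring, zpow_neg, zpow_mul,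
      show ((6 : ℤ) * N) = ((N * 6 : ℕ) : ℤ) by push_cast; ring, zpow_natCast, pow_mul]
    norm_cast
    rw [one_div]
  have a4 : ξ ^ (2 * N) = (ξ ^ N) ^ 2 := by rw [mul_comm, pow_mul]
  rw [a1, a2, a3, a4]
  generalize ξ ^ k = X at *
  generalize ξ ^ N = Y at *
  generalize dd N k R ξ = S at *
  generalize dd N (k - N) (dd N k R) ξ = T at *
  field_simp

/-- one derivative at an isotropic end -/
theorem stepI {s : ℂ} {ψ₁ ξ₁ c : ℂ} (hN : 1 ≤ N) (h0 : ξ₁ ≠ 0)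
    {x : ℂ → ℂ} (hx : ∀ ψ, HasDerivAt x (c / N * x ψ) ψ) (hx0 : ∀ ψ, x ψ ≠ 0)
    (hR : AnalyticAt ℂ R (x ψ₁)) (h : ∀ᶠ ψ in 𝓝 ψ₁, ρ ψ = x ψ ^ k * R (x ψ)) :
    ∀ᶠ ψ in 𝓝 ψ₁, deriv ρ ψ = x ψ ^ k * (c * dd N k R (x ψ)) := by
  have hNc : (N : ℂ) ≠ 0 := by exact_mod_cast (by omega : N ≠ 0)
  have hxc : ContinuousAt x ψ₁ := (hx ψ₁).continuousAt
  filter_upwards [h.eventually_nhds, hxc.eventually hR.eventually_analyticAt] with ψ h1 h2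
  have e1 : HasDerivAt (fun ψ => x ψ ^ k * R (x ψ))
      ((k * x ψ ^ (k - 1) * (c / N * x ψ)) * R (x ψ) + x ψ ^ k * (deriv R (x ψ) * (c / N * x ψ))) ψ :=
    ((hasDerivAt_zpow k (x ψ) (Or.inl (hx0 ψ))).comp ψ (hx ψ)).mul
      (h2.differentiableAt.hasDerivAt.comp ψ (hx ψ))
  have e2 : deriv ρ ψ = deriv (fun ψ => x ψ ^ k * R (x ψ)) ψ := Filter.EventuallyEq.deriv_eq h1
  rw [e2, e1.deriv, zpow_one_sub (hx0 ψ), dd, th]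
  have := hx0 ψ
  field_simp

/-- the numerator at an isotropic end -/
noncomputable def CC (N : ℕ) (k : ℤ) (R : ℂ → ℂ) (ξ : ℂ) : ℂ :=
  2 * R ξ ^ 2 - 5 / 9 * dd N k R ξ ^ 2 + 1 / 3 * (R ξ * dd N k (dd N k R) ξ)

open Vale.Agent.P097.Alg in
theorem kapI {c ψ₁ ξ₁ : ℂ} (hN : 1 ≤ N) (hc : c ^ 2 = -1)
    {x : ℂ → ℂ} (hx : ∀ ψ, HasDerivAt x (c / N * x ψ) ψ) (hx0 : ∀ ψ, x ψ ≠ 0) (hx1 : x ψ₁ = ξ₁)
    (hR : AnalyticAt ℂ R ξ₁) (hR0 : R ξ₁ ≠ 0)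
    (h : ∀ᶠ ψ in 𝓝 ψ₁, ρ ψ = x ψ ^ k * R (x ψ)) :
    kap ρ ψ₁ = ξ₁ ^ (-2 * k) * CC N k R ξ₁ ^ 3 / R ξ₁ ^ 8 := by
  subst hx1
  have h1 := stepI (s := 0) hN (hx0 ψ₁) hx hx0 hR h
  have hR' : AnalyticAt ℂ (fun ξ => c * dd N k R ξ) (x ψ₁) := analyticAt_const.mul (dd_an hR)
  have h2 := stepI (s := 0) hN (hx0 ψ₁) hx hx0 hR' h1
  have h3 : dd N k (fun ξ => c * dd N k R ξ) (x ψ₁) = c * dd N k (dd N k R) (x ψ₁) := by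
    have : deriv (fun ξ => c * dd N k R ξ) (x ψ₁) = c * deriv (dd N k R) (x ψ₁) :=
      deriv_const_mul c (dd_an hR).differentiableAt
    show (k / N : ℂ) * (c * dd N k R (x ψ₁)) +
        x ψ₁ * deriv (fun ξ => c * dd N k R ξ) (x ψ₁) / N =
      c * ((k / N : ℂ) * dd N k R (x ψ₁) + x ψ₁ * deriv (dd N k R) (x ψ₁) / N)
    rw [this]
    ring
  rw [kap, h.self_of_nhds, h1.self_of_nhds, h2.self_of_nhds, h3, CC]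
  have hk : x ψ₁ ^ k ≠ 0 := zpow_ne_zero _ (hx0 ψ₁)
  have a3 : x ψ₁ ^ (-2 * k) = 1 / (x ψ₁ ^ k) ^ 2 := by
    rw [show (-2 * k) = -(k * 2) by ring, zpow_neg, zpow_mul]
    norm_cast
    rw [one_div]
  rw [a3]
  generalize x ψ₁ ^ k = X at *
  generalize dd N k R (x ψ₁) = S at *
  generalize dd N k (dd N k R) (x ψ₁) = T at *
  generalize R (x ψ₁) = r at *
  have e : 2 * (X * r) ^ 2 + 5 / 9 * (X * (c * S)) ^ 2 - 1 / 3 * (X * r * (X * (c * (c * T)))) =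
      X ^ 2 * (2 * r ^ 2 - 5 / 9 * S ^ 2 + 1 / 3 * (r * T)) := by
    linear_combination (5 / 9 * X ^ 2 * S ^ 2 - 1 / 3 * X ^ 2 * r * T) * hc
  rw [e]
  field_simp

end Vale.Agent.P097.H967.EB
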